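import Mathlib

open Set Cardinal

namespace Vale.Agent.P068R

noncomputable section

/-- a nonprincipal ultrafilter on the naturals -/
def WW : Ultrafilter ℕ := Filter.hyperfilter ℕ

theorem fin_notMem {Z : Set ℕ} (h : Z.Finite) : Z ∉ WW := by
  unfold WW
  exact h.notMem_hyperfilter

theorem compl_mem {Z : Set ℕ} : Zᶜ ∈ WW ↔ Z ∉ WW := Ultrafilter.compl_mem_iff_notMem

theorem mem_up {Z Z' : Set ℕ} (h : Z ∈ WW) (hs : Z ⊆ Z') : Z' ∈ WW := Filter.mem_of_superset h hs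

theorem mem_inter' {Z Z' : Set ℕ} (h : Z ∈ WW) (h' : Z' ∈ WW) : Z ∩ Z' ∈ WW :=
  Filter.inter_mem h h'

/-- section of a set of (coded) pairs -/
def sec (Z : Set ℕ) (n : ℕ) : Set ℕ := {m | Nat.pair n m ∈ Z}

/-- the homomorphism onto the power set -/
def hh (Z : Set ℕ) : Set ℕ := {n | sec Z n ∈ WW}

/-- the ideal of small sets -/
def Sm (Z : Set ℕ) : Prop := ∀ n, sec Z n ∉ WW

theorem sec_mono {Z Z' : Set ℕ} (h : Z ⊆ Z') (n : ℕ) : sec Z n ⊆ sec Z' n := fun _ hm => h hm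

theorem Sm.mono {Z Z' : Set ℕ} (h : Sm Z') (hZ : Z ⊆ Z') : Sm Z :=
  fun n hn => h n (mem_up hn (sec_mono hZ n))

theorem Sm.union {Z Z' : Set ℕ} (h : Sm Z) (h' : Sm Z') : Sm (Z ∪ Z') := by
  intro n hn
  have h1 := mem_inter' (mem_inter' hn (compl_mem.2 (h n))) (compl_mem.2 (h' n))
  have h2 : sec (Z ∪ Z') n ∩ (sec Z n)ᶜ ∩ (sec Z' n)ᶜ = ∅ := by
    ext m
    simp only [sec, mem_inter_iff, mem_ofPred_eq, mem_union, mem_compl_iff, mem_empty_iff_false]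
    tauto
  rw [h2] at h1
  exact fin_notMem finite_empty h1

theorem sm_of_finite {Z : Set ℕ} (h : Z.Finite) : Sm Z := by
  intro n
  apply fin_notMem
  have hinj : Set.InjOn (fun m => Nat.pair n m) (sec Z n) := by
    intro a _ b _ hab
    exact (Nat.pair_eq_pair.1 hab).2
  refine Set.Finite.of_finite_image (h.subset ?_) hinj
  rintro _ ⟨m, hm, rfl⟩
  exact hm

theorem sm_empty : Sm ∅ := sm_of_finite finite_empty

theorem hh_mono {Z Z' : Set ℕ} (h : Z ⊆ Z') : hh Z ⊆ hh Z' :=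
  fun n hn => mem_up hn (sec_mono h n)

theorem hh_inter (Z Z' : Set ℕ) : hh (Z ∩ Z') = hh Z ∩ hh Z' := by
  ext n
  constructor
  · intro h
    exact ⟨hh_mono inter_subset_left h, hh_mono inter_subset_right h⟩
  · rintro ⟨h, h'⟩
    exact mem_inter' h h'

theorem hh_compl (Z : Set ℕ) : hh Zᶜ = (hh Z)ᶜ := by
  ext n
  have h1 : sec Zᶜ n = (sec Z n)ᶜ := rfl
  show sec Zᶜ n ∈ WW ↔ ¬ (sec Z n ∈ WW)
  rw [h1]
  exact compl_mem

theorem hh_sub_of_sm {Z Z' : Set ℕ} (h : Sm (Z \ Z')) : hh Z ⊆ hh Z' := by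
  intro n hn
  have h1 := mem_inter' hn (compl_mem.2 (h n))
  refine mem_up h1 ?_
  rintro m ⟨hm1, hm2⟩
  by_contra hm3
  exact hm2 ⟨hm1, hm3⟩

theorem hh_eq_of_sm {Z Z' : Set ℕ} (h : Sm (Z \ Z')) (h' : Sm (Z' \ Z)) : hh Z = hh Z' :=
  Subset.antisymm (hh_sub_of_sm h) (hh_sub_of_sm h')

theorem hh_empty : hh ∅ = ∅ := by
  ext n
  simp only [mem_empty_iff_false, iff_false]
  exact fin_notMem finite_empty

/-- restriction to the rows in `c` -/
def rows (Z c : Set ℕ) : Set ℕ := {k | k ∈ Z ∧ (Nat.unpair k).1 ∈ c}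

theorem hh_rows (Z c : Set ℕ) : hh (rows Z c) = hh Z ∩ c := by
  ext n
  have h1 : ∀ m, m ∈ sec (rows Z c) n ↔ m ∈ sec Z n ∧ n ∈ c := by
    intro m
    simp [sec, rows]
  by_cases hn : n ∈ c
  · have h2 : sec (rows Z c) n = sec Z n := by
      ext m
      rw [h1]
      simp [hn]
    show sec (rows Z c) n ∈ WW ↔ sec Z n ∈ WW ∧ n ∈ c
    rw [h2]
    simp [hn]
  · have h2 : sec (rows Z c) n = ∅ := by
      ext m
      rw [h1]
      simp [hn]
    show sec (rows Z c) n ∈ WW ↔ sec Z n ∈ WW ∧ n ∈ c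
    rw [h2]
    simp only [hn, and_false, iff_false]
    exact fin_notMem finite_empty

/-- `G` generates the ultrafilter -/
def Gen (G : Set (Set ℕ)) : Prop :=
  ∀ S ∈ WW, ∃ F : Finset (Set ℕ), (F : Set (Set ℕ)) ⊆ G ∧ ⋂₀ (F : Set (Set ℕ)) ⊆ S

theorem sInter_mem (F : Finset (Set ℕ)) (h : ∀ S ∈ F, S ∈ WW) :
    ⋂₀ (F : Set (Set ℕ)) ∈ WW := by
  have := (Filter.sInter_mem (f := (WW : Filter ℕ)) F.finite_toSet).2 h
  exact this

theorem exists_chain : ∃ (Ω : Type) (_ : LinearOrder Ω) (_ : WellFoundedLT Ω) (_ : Nonempty Ω)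
    (w : Ω → Set ℕ), (∀ i, w i ∈ WW) ∧
    (∀ S ∈ WW, ∃ F : Finset Ω, (⋂ i ∈ F, w i) ⊆ S) ∧
    (∀ ξ : Ω, ∀ A ∈ WW, ∃ S ∈ WW, ∀ F : Finset Ω, (∀ i ∈ F, i ≤ ξ) →
      ¬ ((⋂ i ∈ F, w i) ∩ A ⊆ S)) := by
  classical
  let P : Cardinal.{0} → Prop := fun c =>
    ∃ G : Set (Set ℕ), #G = c ∧ (∀ S ∈ G, S ∈ WW) ∧ Gen G
  have hex : {c | P c}.Nonempty := by
    refine ⟨_, {S | S ∈ WW}, rfl, fun S hS => hS, fun S hS => ⟨{S}, ?_, ?_⟩⟩
    · simpa using hS
    · simp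
  have wf : WellFounded (fun a b : Cardinal.{0} => a < b) := wellFounded_lt
  let c := wf.min {c | P c} hex
  have hc : P c := wf.min_mem _ hex
  have hmin : ∀ c', c' < c → ¬ P c' := fun c' h h' => wf.not_lt_min _ h' h
  obtain ⟨G, hGc, hGW, hGen⟩ := hc
  have hinf : ℵ₀ ≤ c := by
    by_contra hcon
    push Not at hcon
    rw [← hGc, Cardinal.lt_aleph0_iff_finite] at hcon
    have hGfin : G.Finite := hcon
    have h1 : ⋂₀ G ∈ WW := (Filter.sInter_mem (f := (WW : Filter ℕ)) hGfin).2 hGW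
    have hne : (⋂₀ G).Nonempty := by
      rw [nonempty_iff_ne_empty]
      intro h0
      rw [h0] at h1
      exact fin_notMem finite_empty h1
    obtain ⟨x, hx⟩ := hne
    have h2 : ⋂₀ G ∩ {x}ᶜ ∈ WW := mem_inter' h1 (compl_mem.2 (fin_notMem (finite_singleton x)))
    obtain ⟨F, hF1, hF2⟩ := hGen _ h2
    have h3 : x ∈ ⋂₀ (F : Set (Set ℕ)) := fun S hS => hx S (hF1 hS)
    exact (hF2 h3).2 rfl
  let Ω := c.ord.ToType
  have hΩ : #Ω = c := by simp [Ω]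
  have heq : #Ω = #G := by rw [hΩ, hGc]
  obtain ⟨e⟩ := Cardinal.eq.1 heq
  have hne : Nonempty Ω := by
    rw [← Cardinal.mk_ne_zero_iff, hΩ]
    intro h0
    rw [h0] at hinf
    exact absurd hinf (not_le.2 Cardinal.aleph0_pos)
  refine ⟨Ω, inferInstance, inferInstance, hne, fun i => (e i).1, fun i => hGW _ (e i).2, ?_, ?_⟩
  · intro S hS
    obtain ⟨F, hF1, hF2⟩ := hGen S hS
    refine ⟨F.attach.image (fun T => e.symm ⟨T.1, hF1 T.2⟩), ?_⟩
    refine Subset.trans ?_ hF2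
    intro x hx
    rw [mem_sInter]
    intro T hT
    simp only [mem_iInter] at hx
    have := hx (e.symm ⟨T, hF1 hT⟩) (by
      rw [Finset.mem_image]
      exact ⟨⟨T, hT⟩, Finset.mem_attach _ _, rfl⟩)
    simpa using this
  · intro ξ A hA
    by_contra hcon
    push Not at hcon
    have hlt : #(Iic ξ) < c := by
      have h0 : #(Iio ξ) < #Ω := Cardinal.mk_Iio_lt ξ (by simp [Ω])
      rw [hΩ] at h0
      have h1 : Iic ξ = insert ξ (Iio ξ) := by
        ext x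
        simp only [mem_Iic, mem_insert_iff, mem_Iio]
        exact le_iff_eq_or_lt
      rw [h1]
      refine (Cardinal.mk_insert_le).trans_lt ?_
      exact Cardinal.add_lt_of_lt hinf h0 (Cardinal.one_lt_aleph0.trans_le hinf)
    let G' : Set (Set ℕ) := insert A ((fun i => (e i).1) '' (Iic ξ))
    have hG' : #G' < c := by
      refine (Cardinal.mk_insert_le).trans_lt ?_
      exact Cardinal.add_lt_of_lt hinf (Cardinal.mk_image_le.trans_lt hlt)
        (Cardinal.one_lt_aleph0.trans_le hinf)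
    apply hmin _ hG'
    refine ⟨G', rfl, ?_, ?_⟩
    · rintro S (rfl | ⟨i, _, rfl⟩)
      · exact hA
      · exact hGW _ (e i).2
    · intro S hS
      obtain ⟨F, hF1, hF2⟩ := hcon S hS
      refine ⟨insert A (F.image (fun i => (e i).1)), ?_, ?_⟩
      · intro T hT
        rw [Finset.coe_insert, mem_insert_iff] at hT
        rcases hT with rfl | hT
        · exact Or.inl rfl
        · right
          simp only [Finset.coe_image, mem_image, Finset.mem_coe] at hT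
          obtain ⟨i, hi, rfl⟩ := hT
          exact ⟨i, hF1 i hi, rfl⟩
      · intro x hx
        apply hF2
        rw [mem_sInter] at hx
        refine ⟨?_, hx A (by simp)⟩
        simp only [mem_iInter]
        intro i hi
        apply hx
        rw [Finset.coe_insert]
        right
        simp only [Finset.coe_image, mem_image, Finset.mem_coe]
        exact ⟨i, hi, rfl⟩

/-- An ultrafilter with a rank function. -/
structure Rank (Ω : Type) [LinearOrder Ω] where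
  U : Set (Set ℕ)
  ρ : Set ℕ → Ω
  U_up : ∀ Z Z', Z ∈ U → Z ⊆ Z' → Z' ∈ U
  U_inter : ∀ Z Z', Z ∈ U → Z' ∈ U → Z ∩ Z' ∈ U
  U_compl : ∀ Z, Z ∈ U ↔ Zᶜ ∉ U
  U_inv : ∀ Z Z', Sm (Z \ Z') → Sm (Z' \ Z) → (Z ∈ U ↔ Z' ∈ U)
  ρ_inv : ∀ Z Z', Sm (Z \ Z') → Sm (Z' \ Z) → ρ Z = ρ Z'
  ρ_compl : ∀ Z, ρ Zᶜ = ρ Z
  ρ_mono : ∀ Z Z', Z ⊆ Z' → Z' ∉ U → ρ Z ≤ ρ Z'
  ρ_bot : ∀ Z, ρ ∅ ≤ ρ Z
  rich : ∀ W ∈ U, ∀ Z, ∃ s, s ⊆ W ∧ s ∉ U ∧ ρ Z < ρ s

theorem exists_rank : ∃ (Ω : Type) (_ : LinearOrder Ω) (_ : WellFoundedLT Ω),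
    Nonempty (Rank Ω) := by
  classical
  obtain ⟨Ω, i1, i2, i3, w, hwW, hgen, hrich⟩ := exists_chain
  refine ⟨Ω, i1, i2, ?_⟩
  let D : Ω → Set ℕ → Prop := fun ξ S => ∃ F : Finset Ω, (∀ i ∈ F, i ≤ ξ) ∧
    ((⋂ i ∈ F, w i) ⊆ S ∨ (⋂ i ∈ F, w i) ⊆ Sᶜ)
  have hF : ∀ F : Finset Ω, (⋂ i ∈ F, w i) ∈ WW := by
    intro F
    have := (Filter.biInter_finset_mem (f := (WW : Filter ℕ)) (s := w) F).2 (fun i _ => hwW i)
    exact this
  have hDc : ∀ ξ S, D ξ Sᶜ ↔ D ξ S := by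
    intro ξ S
    simp only [D, compl_compl]
    constructor
    · rintro ⟨F, h1, h2⟩
      exact ⟨F, h1, h2.symm⟩
    · rintro ⟨F, h1, h2⟩
      exact ⟨F, h1, h2.symm⟩
  have hDne0 : ∀ S ∈ WW, {ξ | D ξ S}.Nonempty := by
    intro S hS
    obtain ⟨F, hF'⟩ := hgen S hS
    by_cases hFe : F.Nonempty
    · exact ⟨F.max' hFe, F, fun i hi => F.le_max' i hi, Or.inl hF'⟩
    · rw [Finset.not_nonempty_iff_eq_empty] at hFe
      subst hFe
      exact ⟨Classical.arbitrary Ω, ∅, fun i hi => absurd hi (by simp), Or.inl hF'⟩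
  have hDne : ∀ S, {ξ | D ξ S}.Nonempty := by
    intro S
    by_cases hS : S ∈ WW
    · exact hDne0 S hS
    · obtain ⟨ξ, hξ⟩ := hDne0 Sᶜ (compl_mem.2 hS)
      exact ⟨ξ, (hDc ξ S).1 hξ⟩
  have wf : WellFounded (fun a b : Ω => a < b) := wellFounded_lt
  let r : Set ℕ → Ω := fun S => wf.min {ξ | D ξ S} (hDne S)
  have hrD : ∀ S, D (r S) S := fun S => wf.min_mem {ξ | D ξ S} (hDne S)
  have hrle : ∀ S ξ, D ξ S → r S ≤ ξ := fun S ξ h => not_lt.1 (wf.not_lt_min {ξ | D ξ S} h)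
  have hDmono : ∀ S ξ η, ξ ≤ η → D ξ S → D η S := by
    rintro S ξ η h ⟨F, h1, h2⟩
    exact ⟨F, fun i hi => (h1 i hi).trans h, h2⟩
  have hrc : ∀ S, r Sᶜ = r S := by
    intro S
    apply le_antisymm
    · exact hrle _ _ ((hDc _ S).2 (hrD S))
    · exact hrle _ _ ((hDc _ S).1 (hrD Sᶜ))
  have hrmono : ∀ S S', S ⊆ S' → S' ∉ WW → r S ≤ r S' := by
    intro S S' hSS hS'
    apply hrle
    obtain ⟨F, h1, h2⟩ := hrD S'
    refine ⟨F, h1, Or.inr ?_⟩
    rcases h2 with h2 | h2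
    · exact absurd (mem_up (hF F) h2) hS'
    · exact h2.trans (compl_subset_compl.2 hSS)
  have hrbot : ∀ S, r ∅ ≤ r S := by
    intro S
    apply hrle
    exact ⟨∅, fun i hi => absurd hi (by simp), Or.inr (by simp)⟩
  have hrrich : ∀ A ∈ WW, ∀ S, ∃ c, c ⊆ A ∧ c ∉ WW ∧ r S < r c := by
    intro A hA S
    obtain ⟨T, hT, hT2⟩ := hrich (r S) A hA
    refine ⟨A \ T, sdiff_subset, ?_, ?_⟩
    · rw [← compl_mem]
      refine mem_up hT ?_
      intro x hx hx2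
      exact hx2.2 hx
    · by_contra hcon
      push Not at hcon
      obtain ⟨F, h1, h2⟩ := hDmono _ _ _ hcon (hrD (A \ T))
      rcases h2 with h2 | h2
      · have h3 := mem_inter' (mem_up (hF F) h2) hT
        have h4 : A \ T ∩ T = ∅ := by
          ext x
          simp
        rw [h4] at h3
        exact fin_notMem finite_empty h3
      · apply hT2 F h1
        rintro x ⟨hx1, hx2⟩
        by_contra hx3
        exact h2 hx1 ⟨hx2, hx3⟩
  refine ⟨{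
    U := {Z | hh Z ∈ WW}
    ρ := fun Z => r (hh Z)
    U_up := fun Z Z' h hs => mem_up h (hh_mono hs)
    U_inter := fun Z Z' h h' => by
      show hh (Z ∩ Z') ∈ WW
      rw [hh_inter]
      exact mem_inter' h h'
    U_compl := fun Z => by
      show hh Z ∈ WW ↔ ¬ (hh Zᶜ ∈ WW)
      rw [hh_compl, compl_mem, not_not]
    U_inv := fun Z Z' h h' => by
      show hh Z ∈ WW ↔ hh Z' ∈ WW
      rw [hh_eq_of_sm h h']
    ρ_inv := fun Z Z' h h' => by
      show r (hh Z) = r (hh Z')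
      rw [hh_eq_of_sm h h']
    ρ_compl := fun Z => by
      show r (hh Zᶜ) = r (hh Z)
      rw [hh_compl, hrc]
    ρ_mono := fun Z Z' h h' => hrmono _ _ (hh_mono h) h'
    ρ_bot := fun Z => by
      show r (hh ∅) ≤ r (hh Z)
      rw [hh_empty]
      exact hrbot _
    rich := ?_ }⟩
  intro W hW Z
  obtain ⟨c, hc1, hc2, hc3⟩ := hrrich (hh W) hW (hh Z)
  have h1 : hh (rows W c) = c := by
    rw [hh_rows]
    exact inter_eq_right.2 hc1
  refine ⟨rows W c, fun k hk => hk.1, ?_, ?_⟩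
  · show ¬ (hh (rows W c) ∈ WW)
    rw [h1]
    exact hc2
  · show r (hh Z) < r (hh (rows W c))
    rw [h1]
    exact hc3

end

end Vale.Agent.P068R
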