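import Mathlib

namespace Vale.Agent.P068R

/-- The reaping number is the continuum: fewer than continuum many infinite sets of natural
numbers can be split simultaneously by one set. -/
def ReapingEqContinuum : Prop :=
  ∀ F : Set (Set ℕ), Cardinal.mk F < Cardinal.continuum → (∀ A ∈ F, A.Infinite) →
    ∃ S : Set ℕ, ∀ A ∈ F, (A ∩ S).Infinite ∧ (A \ S).Infinite

end Vale.Agent.P068R
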