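import Vale.Agent.P068R.Base
import Vale.Agent.P068R.Defs

open Set Cardinal

namespace Vale.Agent.P068R

noncomputable section

theorem hit (hr : ReapingEqContinuum) (F : Set (Set ℕ)) (hF : #F < continuum)
    (hinf : ∀ A ∈ F, A.Infinite) : ∃ R, Sm R ∧ ∀ A ∈ F, (A ∩ R).Infinite := by
  classical
  let M : Set ℕ → Set ℕ := fun A => (fun k => (Nat.unpair k).2) '' A
  let F' : Set (Set ℕ) := (M '' F) ∩ {B | B.Infinite}
  have hF' : #F' < continuum := (Cardinal.mk_le_mk_of_subset inter_subset_left).trans_lt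
    (Cardinal.mk_image_le.trans_lt hF)
  obtain ⟨S, hS⟩ := hr F' hF' (fun B hB => hB.2)
  obtain ⟨V, hV, hVS⟩ : ∃ V ∈ WW, ∀ B ∈ F', (B \ V).Infinite := by
    by_cases h : S ∈ WW
    · exact ⟨S, h, fun B hB => (hS B hB).2⟩
    · refine ⟨Sᶜ, compl_mem.2 h, fun B hB => ?_⟩
      have := (hS B hB).1
      rwa [sdiff_compl]
  let R : Set ℕ := {k | (Nat.unpair k).2 ∉ V ∨ (Nat.unpair k).2 ≤ (Nat.unpair k).1}
  refine ⟨R, ?_, ?_⟩
  · intro n
    have h1 : sec R n ⊆ Vᶜ ∪ Iic n := by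
      intro m hm
      have hm' : (Nat.unpair (Nat.pair n m)).2 ∉ V ∨
        (Nat.unpair (Nat.pair n m)).2 ≤ (Nat.unpair (Nat.pair n m)).1 := hm
      simpa using hm'
    intro h2
    have h3 := mem_inter' (mem_up h2 h1) hV
    have h4 : (Vᶜ ∪ Iic n) ∩ V ⊆ Iic n := by
      rintro x ⟨hx | hx, hx2⟩
      · exact absurd hx2 hx
      · exact hx
    exact fin_notMem (finite_Iic n) (mem_up h3 h4)
  · intro A hA
    by_cases hM : (M A).Infinite
    · have h1 := hVS (M A) ⟨⟨A, hA, rfl⟩, hM⟩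
      have h2 : M A \ V ⊆ (fun k => (Nat.unpair k).2) '' (A ∩ R) := by
        rintro m ⟨⟨k, hk, rfl⟩, hm⟩
        exact ⟨k, ⟨hk, Or.inl hm⟩, rfl⟩
      exact Set.Infinite.of_image _ (h1.mono h2)
    · rw [not_infinite] at hM
      obtain ⟨b, hb⟩ := hM.bddAbove
      have hfin : {k : ℕ | (Nat.unpair k).1 < b ∧ (Nat.unpair k).2 ≤ b}.Finite := by
        refine Set.Finite.subset (((finite_Iio b).prod (finite_Iic b)).image
          (fun p : ℕ × ℕ => Nat.pair p.1 p.2)) ?_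
        rintro k ⟨h1, h2⟩
        exact ⟨Nat.unpair k, ⟨h1, h2⟩, Nat.pair_unpair k⟩
      refine ((hinf A hA).sdiff hfin).mono ?_
      rintro k ⟨hk, hk2⟩
      refine ⟨hk, Or.inr ?_⟩
      have h1 : (Nat.unpair k).2 ≤ b := hb ⟨k, hk, rfl⟩
      by_contra hcon
      push Not at hcon
      exact hk2 ⟨hcon.trans_le h1, h1⟩

end

end Vale.Agent.P068R
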