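import Vale.Agent.P068R.Uniform

open Set
open scoped Cardinal

namespace Vale.Agent.P068R

noncomputable section

variable {Ω : Type} [LinearOrder Ω] (R : Rank Ω)

/-- recursion with choice -/
theorem wf_choice {Λ : Type} [LinearOrder Λ] [WellFoundedLT Λ] {β : Type*} [Nonempty β]
    (P : Λ → (Λ → β) → β → Prop)
    (hloc : ∀ a g g' x, (∀ b, b < a → g b = g' b) → P a g x → P a g' x) :
    ∃ f : Λ → β, ∀ a, (∃ x, P a f x) → P a f (f a) := by
  classical
  have wf : WellFounded (fun a b : Λ => a < b) := wellFounded_lt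
  let F : ∀ a : Λ, (∀ b, b < a → β) → β := fun a rec =>
    Classical.epsilon (P a (fun b => if h : b < a then rec b h else Classical.arbitrary β))
  let f : Λ → β := wf.fix F
  refine ⟨f, fun a hex => ?_⟩
  have hfa : f a = F a (fun b _ => f b) := wf.fix_eq F a
  obtain ⟨x, hx⟩ := hex
  have h1 : ∃ x, P a (fun b => if h : b < a then f b else Classical.arbitrary β) x := by
    refine ⟨x, hloc a f _ x ?_ hx⟩
    intro b hb
    simp [hb]
  have h2 : P a (fun b => if h : b < a then f b else Classical.arbitrary β) (f a) := by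
    rw [hfa]
    exact Classical.epsilon_spec h1
  refine hloc a _ f _ ?_ h2
  intro b hb
  simp [hb]

variable {Λ : Type} [LinearOrder Λ] [WellFoundedLT Λ]

theorem exists_bases (hr : ReapingEqContinuum)
    (hcount : ∀ i : Λ, #(Iio i) < Cardinal.continuum) (e : Λ → Set GG × Set GG)
    (he : Function.Surjective e) :
    ∃ f : Λ → Option (Set GG), (∀ i B, f i = some B → Mid R B) ∧
      (∀ i j B B', f i = some B → f j = some B' → i ≠ j →
        (B \ B').Infinite ∧ (B' \ B).Infinite) ∧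
      (∀ X Y : Set GG, X ⊆ Y → ¬ Hi R X → ¬ Lo R Y →
        (∃ i B, f i = some B ∧ X ⊆ B ∧ B ⊆ Y) ∨
        (∃ i B, f i = some B ∧ ((B \ X).Finite ∨ (Y \ B).Finite))) := by
  classical
  let cond : Λ → (Λ → Option (Set GG)) → Prop := fun i g =>
    (e i).1 ⊆ (e i).2 ∧ ¬ Hi R (e i).1 ∧ ¬ Lo R (e i).2 ∧
      ∀ j, j < i → ∀ B', g j = some B' → (B' \ (e i).1).Infinite ∧ ((e i).2 \ B').Infinite
  let P : Λ → (Λ → Option (Set GG)) → Option (Set GG) → Prop := fun i g x =>
    (cond i g → ∃ B, x = some B ∧ (e i).1 ⊆ B ∧ B ⊆ (e i).2 ∧ Mid R B ∧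
      ∀ j, j < i → ∀ B', g j = some B' → (B' \ B).Infinite ∧ (B \ B').Infinite) ∧
    (¬ cond i g → x = none)
  have hloc : ∀ a g g' x, (∀ b, b < a → g b = g' b) → P a g x → P a g' x := by
    intro a g g' x hg hP
    have hc : cond a g ↔ cond a g' := by
      simp only [cond]
      refine and_congr_right fun _ => and_congr_right fun _ => and_congr_right fun _ => ?_
      constructor
      · intro h j hj B' hB'
        exact h j hj B' ((hg j hj).trans hB')
      · intro h j hj B' hB'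
        exact h j hj B' ((hg j hj).symm.trans hB')
    refine ⟨fun h => ?_, fun h => hP.2 (fun h' => h (hc.1 h'))⟩
    obtain ⟨B, h1, h2, h3, h4, h5⟩ := hP.1 (hc.2 h)
    exact ⟨B, h1, h2, h3, h4, fun j hj B' hB' => h5 j hj B' ((hg j hj).trans hB')⟩
  obtain ⟨f, hf⟩ := wf_choice P hloc
  have key : ∀ i, P i f (f i) := by
    intro i
    apply hf
    by_cases hc : cond i f
    · let CC : Set (Set GG) := {B | ∃ j, j < i ∧ f j = some B}
      have hCC : #CC < Cardinal.continuum := by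
        have hsub : CC ⊆ (fun j => (f j).getD ∅) '' (Iio i) := by
          rintro B ⟨j, hj, hB⟩
          exact ⟨j, hj, by simp [hB]⟩
        exact (Cardinal.mk_le_mk_of_subset hsub).trans_lt
          (Cardinal.mk_image_le.trans_lt (hcount i))
      obtain ⟨B, h1, h2, h3, h4⟩ := stage R hr CC hCC hc.1 hc.2.1 hc.2.2.1 (by
        rintro B ⟨j, hj, hB⟩
        exact hc.2.2.2 j hj B hB)
      exact ⟨some B, fun _ => ⟨B, rfl, h1, h2, h3, fun j hj B' hB' => h4 B' ⟨j, hj, hB'⟩⟩,
        fun h => absurd hc h⟩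
    · exact ⟨none, fun h => absurd h hc, fun _ => rfl⟩
  have hcond : ∀ i B, f i = some B → cond i f := by
    intro i B hB
    by_contra hc
    have := (key i).2 hc
    rw [hB] at this
    exact absurd this (by simp)
  have hspec : ∀ i B, f i = some B → (e i).1 ⊆ B ∧ B ⊆ (e i).2 ∧ Mid R B ∧
      ∀ j, j < i → ∀ B', f j = some B' → (B' \ B).Infinite ∧ (B \ B').Infinite := by
    intro i B hB
    obtain ⟨B1, h1, h2⟩ := (key i).1 (hcond i B hB)
    rw [hB] at h1
    have : B = B1 := Option.some.inj h1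
    rw [this]
    exact h2
  refine ⟨f, fun i B hB => (hspec i B hB).2.2.1, ?_, ?_⟩
  · intro i j B B' hB hB' hij
    rcases lt_or_gt_of_ne hij with h | h
    · exact (hspec j B' hB').2.2.2 i h B hB
    · exact ((hspec i B hB).2.2.2 j h B' hB').symm
  · intro X Y hXY hX hY
    obtain ⟨i, hi⟩ := he (X, Y)
    by_cases hc : cond i f
    · left
      obtain ⟨B, h1, h2, h3, _⟩ := (key i).1 hc
      rw [hi] at h2 h3
      exact ⟨i, B, h1, h2, h3⟩
    · right
      simp only [cond, hi] at hc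
      push Not at hc
      obtain ⟨j, hj, B', hB', h⟩ := hc hXY hX hY
      refine ⟨j, B', hB', ?_⟩
      by_cases h1 : (B' \ X).Finite
      · exact Or.inl h1
      · exact Or.inr (h h1)

/-- The wild uniform matroid. -/
theorem exists_wild (hr : ReapingEqContinuum)
    (hcount : ∀ i : Λ, #(Iio i) < Cardinal.continuum) (e : Λ → Set GG × Set GG)
    (he : Function.Surjective e) :
    ∃ V : Matroid GG, V.E = univ ∧ (∀ B, V.IsBase B → Mid R B) ∧
      (∀ Y, V.Indep Y ∨ ∃ B, V.IsBase B ∧ B ⊆ Y) := by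
  classical
  obtain ⟨f, hf1, hf2, hf3⟩ := exists_bases R hr hcount e he
  let BB : Set (Set GG) := {B | ∃ i B0, f i = some B0 ∧ Eqv B0 B}
  have hMid : ∀ B ∈ BB, Mid R B := by
    rintro B ⟨i, B0, h1, h2⟩
    exact (thin_of_fin h2.1 h2.fin').Mid R (hf1 i B0 h1)
  have hanti : ∀ B ∈ BB, ∀ B' ∈ BB, B ⊆ B' → B = B' := by
    rintro B ⟨i, B0, h1, h2⟩ B' ⟨j, B0', h1', h2'⟩ hs
    by_cases hij : i = j
    · subst hij
      rw [h1] at h1'
      have : B0 = B0' := Option.some.inj h1'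
      subst this
      exact (h2.symm.trans h2').eq_of_subset hs
    · exfalso
      apply (hf2 i j B0 B0' h1 h1' hij).1
      refine ((h2.1).union h2'.fin').subset ?_
      rintro x ⟨hx1, hx2⟩
      by_cases hx3 : x ∈ B
      · exact Or.inr ⟨hs hx3, hx2⟩
      · exact Or.inl ⟨hx1, hx3⟩
  have hexch : ∀ B ∈ BB, ∀ a ∈ B, ∀ b ∉ B, insert b (B \ {a}) ∈ BB := by
    rintro B ⟨i, B0, h1, h2⟩ a ha b hb
    exact ⟨i, B0, h1, h2.trans (Eqv.exch ha hb)⟩
  have hmain : ∀ X Y : Set GG, X ⊆ Y → ¬ Hi R X → ¬ Lo R Y →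
      (∃ B ∈ BB, Y ⊆ B) ∨ (∃ B ∈ BB, B ⊆ X) ∨ (∃ B ∈ BB, X ⊆ B ∧ B ⊆ Y) := by
    intro X Y hXY hX hY
    rcases hf3 X Y hXY hX hY with ⟨i, B, h1, h2, h3⟩ | ⟨i, B, h1, h2⟩
    · exact Or.inr (Or.inr ⟨B, ⟨i, B, h1, Eqv.refl B⟩, h2, h3⟩)
    · have hXfin : (X \ B).Finite ∨ (B \ X).Finite := by
        rcases h2 with h2 | h2
        · exact Or.inr h2
        · exact Or.inl (h2.subset (sdiff_subset_sdiff_left hXY))
      have hYfin : (Y \ B).Finite ∨ (B \ Y).Finite := by
        rcases h2 with h2 | h2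
        · exact Or.inr (h2.subset (sdiff_subset_sdiff_right hXY))
        · exact Or.inl h2
      rcases low_or_high hXfin with hXl | hXh
      · rcases low_or_high hYfin with hYl | hYh
        · left
          obtain ⟨B', h3, h4, _⟩ := between (subset_univ Y) hYl (high_univ B)
          exact ⟨B', ⟨i, B, h1, h3⟩, h4⟩
        · right
          right
          obtain ⟨B', h3, h4, h5⟩ := between hXY hXl hYh
          exact ⟨B', ⟨i, B, h1, h3⟩, h4, h5⟩
      · right
        left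
        obtain ⟨B', h3, _, h5⟩ := between (empty_subset X) (low_empty B) hXh
        exact ⟨B', ⟨i, B, h1, h3⟩, h5⟩
  have hLoInd : ∀ Y, Lo R Y → ∃ B ∈ BB, Y ⊆ B := by
    intro Y hY
    rcases hmain Y univ (subset_univ Y) (not_Hi_of_Lo R hY)
      (fun h => not_Hi_of_Lo R h (Hi_univ R)) with ⟨B, hB, h⟩ | ⟨B, hB, h⟩ | ⟨B, hB, h, _⟩
    · exact absurd (Hi_up R h (Hi_univ R)) (hMid B hB).1
    · exact absurd (Lo_down R h hY) (hMid B hB).2
    · exact ⟨B, hB, h⟩
  have hunif : ∀ Y, (∃ B ∈ BB, Y ⊆ B) ∨ (∃ B ∈ BB, B ⊆ Y) := by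
    intro Y
    by_cases hY : Lo R Y
    · exact Or.inl (hLoInd Y hY)
    · rcases hmain ∅ Y (empty_subset Y) (not_Hi_of_Lo R (Lo_empty R)) hY with
        ⟨B, hB, h⟩ | ⟨B, hB, h⟩ | ⟨B, hB, _, h⟩
      · exact Or.inl ⟨B, hB, h⟩
      · exact absurd (Lo_down R h (Lo_empty R)) (hMid B hB).2
      · exact Or.inr ⟨B, hB, h⟩
  let V : Matroid GG :=
    { E := univ
      IsBase := fun B => B ∈ BB
      Indep := fun I => ∃ B, B ∈ BB ∧ I ⊆ B
      indep_iff' := fun I => Iff.rfl
      exists_isBase := by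
        obtain ⟨B, hB, _⟩ := hLoInd ∅ (Lo_empty R)
        exact ⟨B, hB⟩
      isBase_exchange := by
        intro B B' hB hB' a ha
        have h1 : ∃ b, b ∈ B' ∧ b ∉ B := by
          by_contra hcon
          push Not at hcon
          have h2 := hanti B' hB' B hB hcon
          rw [h2] at ha
          exact ha.2 ha.1
        obtain ⟨b, hb1, hb2⟩ := h1
        exact ⟨b, ⟨hb1, hb2⟩, hexch B hB a ha.1 b hb2⟩
      maximality := by
        intro Y _ X hX hXY
        obtain ⟨B1, hB1, hXB1⟩ := hX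
        by_cases hY : ∃ B, B ∈ BB ∧ Y ⊆ B
        · refine ⟨Y, hXY, ⟨hY, Subset.rfl⟩, ?_⟩
          intro K hK _
          exact hK.2
        · have hmaxB : ∀ B ∈ BB, B ⊆ Y →
              Maximal (fun K => (∃ B', B' ∈ BB ∧ K ⊆ B') ∧ K ⊆ Y) B := by
            intro B hB hBY
            refine ⟨⟨⟨B, hB, Subset.rfl⟩, hBY⟩, ?_⟩
            rintro K ⟨⟨B', hB', hK⟩, _⟩ hBK
            have := hanti B hB B' hB' (hBK.trans hK)
            rw [this]
            exact hK
          have hXH : ¬ Hi R X := fun h => (hMid B1 hB1).1 (Hi_up R hXB1 h)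
          have hYL : ¬ Lo R Y := fun h => hY (by
            obtain ⟨B, hB, hYB⟩ := hLoInd Y h
            exact ⟨B, hB, hYB⟩)
          rcases hmain X Y hXY hXH hYL with ⟨B, hB, h⟩ | ⟨B, hB, h⟩ | ⟨B, hB, h, h'⟩
          · exact absurd ⟨B, hB, h⟩ hY
          · have h2 := hanti B hB B1 hB1 (h.trans hXB1)
            have h3 : X = B := Subset.antisymm (by rw [h2]; exact hXB1) h
            refine ⟨B, by rw [h3], hmaxB B hB (h.trans hXY)⟩
          · exact ⟨B, h, hmaxB B hB h'⟩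
      subset_ground := fun B _ => subset_univ B }
  refine ⟨V, rfl, hMid, fun Y => ?_⟩
  rcases hunif Y with ⟨B, hB, h⟩ | ⟨B, hB, h⟩
  · exact Or.inl ⟨B, hB, h⟩
  · exact Or.inr ⟨B, hB, h⟩

end

end Vale.Agent.P068R
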